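import Mathlib
import Vale.Agent.Lib.P096.VN

namespace Vale.Agent.Results.P096.AbelianVsHalving

open Vale.Agent.Lib.P096

/-- An abelian von Neumann algebra `M` and a von Neumann algebra `N` containing two anticommuting
self-adjoint unitaries (equivalently, a unital copy of the two by two matrices) on the same
nonzero Hilbert space: some self-adjoint unitary of `N` is at distance at least one from all of
`M`, and the Kadison-Kastler distance (Hausdorff distance of the closed unit balls) equals one,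
its largest possible value. -/
theorem result {H : Type*} [NormedAddCommGroup H] [InnerProductSpace ℂ H] [CompleteSpace H]
    [Nontrivial H] (M N : VonNeumannAlgebra H)
    (hM : ∀ a ∈ M, ∀ b ∈ M, a * b = b * a)
    (s₁ s₂ : H →L[ℂ] H) (h₁ : s₁ ∈ N) (h₂ : s₂ ∈ N)
    (hs₁ : star s₁ = s₁) (hs₂ : star s₂ = s₂) (hu₁ : s₁ * s₁ = 1) (hu₂ : s₂ * s₂ = 1)
    (hanti : s₁ * s₂ = -(s₂ * s₁)) :
    (∃ x ∈ N, star x = x ∧ x * x = 1 ∧ ∀ y ∈ M, 1 ≤ ‖x - y‖) ∧
      Metric.hausdorffDist {x : H →L[ℂ] H | x ∈ M ∧ ‖x‖ ≤ 1}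
        {x : H →L[ℂ] H | x ∈ N ∧ ‖x‖ ≤ 1} = 1 := by
  have hx := exists_far_symmetry_vn M N hM s₁ s₂ h₁ h₂ hs₁ hs₂ hu₁ hu₂ hanti
  refine ⟨hx, hausdorffDist_unitBall_eq_one M N ?_⟩
  obtain ⟨x, hxN, hstar, hsq, hfar⟩ := hx
  refine ⟨x, hxN, ?_, hfar⟩
  have h := CStarRing.norm_star_mul_self (x := x)
  rw [hstar, hsq, norm_one] at h
  nlinarith [norm_nonneg x]

end Vale.Agent.Results.P096.AbelianVsHalving
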