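import Mathlib
import Vale.Agent.Lib.P096.CornerMain

namespace Vale.Agent.Results.P096.AbelianVsNonabelian

open Vale.Agent.Lib.P096

/-- An abelian von Neumann algebra `M` and a von Neumann algebra `N` on the same Hilbert space,
where `N` contains a nonzero `v` with `v * star v * v = v` and `v * v = 0` (equivalently, two
nonzero mutually orthogonal Murray-von Neumann equivalent projections `star v * v` and
`v * star v`):
some self-adjoint unitary of `N` is at distance at least one from all of `M`, and the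
Kadison-Kastler distance (Hausdorff distance of the closed unit balls) equals one, its largest
possible value. -/
theorem result {H : Type*} [NormedAddCommGroup H] [InnerProductSpace ℂ H] [CompleteSpace H]
    (M N : VonNeumannAlgebra H)
    (hM : ∀ a ∈ M, ∀ b ∈ M, a * b = b * a)
    (v : H →L[ℂ] H) (hvN : v ∈ N) (hv2 : v * v = 0) (hv : v * star v * v = v) (hv0 : v ≠ 0) :
    (∃ x ∈ N, star x = x ∧ x * x = 1 ∧ ∀ y ∈ M, 1 ≤ ‖x - y‖) ∧
      Metric.hausdorffDist {x : H →L[ℂ] H | x ∈ M ∧ ‖x‖ ≤ 1}
        {x : H →L[ℂ] H | x ∈ N ∧ ‖x‖ ≤ 1} = 1 := by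
  have hx := exists_far_symmetry_corner_vn M N hM v hvN hv2 hv hv0
  refine ⟨hx, hausdorffDist_unitBall_eq_one M N ?_⟩
  obtain ⟨x, hxN, hstar, hsq, hfar⟩ := hx
  refine ⟨x, hxN, ?_, hfar⟩
  have hnt : Nontrivial (H →L[ℂ] H) := ⟨⟨v, 0, hv0⟩⟩
  have h := CStarRing.norm_star_mul_self (x := x)
  rw [hstar, hsq, norm_one] at h
  nlinarith [norm_nonneg x]

end Vale.Agent.Results.P096.AbelianVsNonabelian
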