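import Mathlib
import Vale.Agent.Lib.P096.NC.Assemble

namespace Vale.Agent.Results.P096.AbelianVsNoncommutative

open Vale.Agent.Lib.P096

/-- An abelian von Neumann algebra `M` and a non-commutative von Neumann algebra `N` on the same
Hilbert space: some self-adjoint unitary of `N` is at distance at least one from all of `M`, and
the Kadison-Kastler distance (Hausdorff distance of the closed unit balls) equals one, its
largest possible value.  In particular a von Neumann algebra at Kadison-Kastler distance less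
than one from an abelian one is abelian. -/
theorem result {H : Type*} [NormedAddCommGroup H] [InnerProductSpace ℂ H] [CompleteSpace H]
    (M N : VonNeumannAlgebra H)
    (hM : ∀ a ∈ M, ∀ b ∈ M, a * b = b * a)
    (hN : ∃ a ∈ N, ∃ b ∈ N, a * b ≠ b * a) :
    (∃ x ∈ N, star x = x ∧ x * x = 1 ∧ ∀ y ∈ M, 1 ≤ ‖x - y‖) ∧
      Metric.hausdorffDist {x : H →L[ℂ] H | x ∈ M ∧ ‖x‖ ≤ 1}
        {x : H →L[ℂ] H | x ∈ N ∧ ‖x‖ ≤ 1} = 1 := by
  obtain ⟨a, ha, b, hb, hab⟩ := hN
  have hx := exists_far_symmetry_noncomm M N hM a b ha hb hab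
  refine ⟨hx, hausdorffDist_unitBall_eq_one M N ?_⟩
  obtain ⟨x, hxN, hstar, hsq, hfar⟩ := hx
  refine ⟨x, hxN, ?_, hfar⟩
  have hnt : Nontrivial (H →L[ℂ] H) := ⟨⟨a * b, b * a, hab⟩⟩
  have h := CStarRing.norm_star_mul_self (x := x)
  rw [hstar, hsq, norm_one] at h
  nlinarith [norm_nonneg x]

end Vale.Agent.Results.P096.AbelianVsNoncommutative
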