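import Mathlib
import Vale.Agent.Lib.P096.Finite

namespace Vale.Agent.Results.P096.SharpTypeStability

open Vale.Agent.Lib.P096

/-- Sharp stability of two type properties of von Neumann algebras `M`, `N` on the same Hilbert
space under the Kadison-Kastler distance.

First part (one-sided): if every element of the closed unit ball of `N` is at distance less than
one from `M`, then `N` is abelian if `M` is, and `N` is finite (every isometry of `N` is unitary)
if `M` is.

Second part: if the Kadison-Kastler distance (Hausdorff distance of the closed unit balls) is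
less than one, then `M` is abelian if and only if `N` is, and `M` is finite if and only if `N`
is. -/
theorem result {H : Type*} [NormedAddCommGroup H] [InnerProductSpace ℂ H] [CompleteSpace H]
    (M N : VonNeumannAlgebra H) :
    ((∀ x ∈ N, ‖x‖ ≤ 1 → ∃ y ∈ M, ‖x - y‖ < 1) →
      ((∀ a ∈ M, ∀ b ∈ M, a * b = b * a) → (∀ a ∈ N, ∀ b ∈ N, a * b = b * a)) ∧
      ((∀ w ∈ M, star w * w = 1 → w * star w = 1) →
        (∀ w ∈ N, star w * w = 1 → w * star w = 1))) ∧
    (Metric.hausdorffDist {x : H →L[ℂ] H | x ∈ M ∧ ‖x‖ ≤ 1}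
        {x : H →L[ℂ] H | x ∈ N ∧ ‖x‖ ≤ 1} < 1 →
      ((∀ a ∈ M, ∀ b ∈ M, a * b = b * a) ↔ (∀ a ∈ N, ∀ b ∈ N, a * b = b * a)) ∧
      ((∀ w ∈ M, star w * w = 1 → w * star w = 1) ↔
        (∀ w ∈ N, star w * w = 1 → w * star w = 1))) := by
  have one_sided : ∀ A B : VonNeumannAlgebra H,
      (∀ x ∈ B, ‖x‖ ≤ 1 → ∃ y ∈ A, ‖x - y‖ < 1) →
      ((∀ a ∈ A, ∀ b ∈ A, a * b = b * a) → (∀ a ∈ B, ∀ b ∈ B, a * b = b * a)) ∧
      ((∀ w ∈ A, star w * w = 1 → w * star w = 1) →
        (∀ w ∈ B, star w * w = 1 → w * star w = 1)) := by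
    intro A B hnear
    constructor
    · intro hA a ha b hb
      by_contra hab
      obtain ⟨x, hxB, hstar, hsq, hfar⟩ := exists_far_symmetry_noncomm A B hA a b ha hb hab
      have hnt : Nontrivial (H →L[ℂ] H) := ⟨⟨a * b, b * a, hab⟩⟩
      have hx1 : ‖x‖ ≤ 1 := by
        have h := CStarRing.norm_star_mul_self (x := x)
        rw [hstar, hsq, norm_one] at h
        nlinarith [norm_nonneg x]
      obtain ⟨y, hyA, hy⟩ := hnear x hxB hx1
      exact absurd hy (not_lt.2 (hfar y hyA))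
    · intro hA w hw hw1
      by_contra hne
      have hnt : Nontrivial (H →L[ℂ] H) := ⟨⟨w * star w, 1, hne⟩⟩
      have hx1 : ‖w‖ ≤ 1 := by
        have h := CStarRing.norm_star_mul_self (x := w)
        rw [hw1, norm_one] at h
        nlinarith [norm_nonneg w]
      obtain ⟨y, hyA, hy⟩ := hnear w hw hx1
      exact absurd hy (not_lt.2 (far_isometry_of_finite A hA w hw1 hne y hyA))
  have near_of_dist : ∀ A B : VonNeumannAlgebra H,
      Metric.hausdorffDist {x : H →L[ℂ] H | x ∈ A ∧ ‖x‖ ≤ 1}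
        {x : H →L[ℂ] H | x ∈ B ∧ ‖x‖ ≤ 1} < 1 →
      ∀ x ∈ B, ‖x‖ ≤ 1 → ∃ y ∈ A, ‖x - y‖ < 1 := by
    intro A B hd x hxB hx1
    by_contra hcon
    push Not at hcon
    have h1 := hausdorffDist_unitBall_eq_one A B ⟨x, hxB, hx1, hcon⟩
    linarith
  refine ⟨one_sided M N, ?_⟩
  intro hd
  have hd' : Metric.hausdorffDist {x : H →L[ℂ] H | x ∈ N ∧ ‖x‖ ≤ 1}
      {x : H →L[ℂ] H | x ∈ M ∧ ‖x‖ ≤ 1} < 1 := by
    rw [Metric.hausdorffDist_comm]
    exact hd
  have h1 := one_sided M N (near_of_dist M N hd)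
  have h2 := one_sided N M (near_of_dist N M hd')
  exact ⟨⟨h1.1, h2.1⟩, ⟨h1.2, h2.2⟩⟩

end Vale.Agent.Results.P096.SharpTypeStability
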